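import Vale.Agent.P112.Defs
import Vale.Agent.P112.Main

namespace Vale.Agent.Results.P112.BeyondUnitScale

open Vale.Agent.P112 MeasureTheory

/-- For every `a > 1` there is one unit vector field `v` of Lipschitz constant at most `1` for which
neither `H_{v,a}` nor `M_{v,a}` satisfies a weak `(2,2)` bound on Schwartz functions. -/
theorem result (a : ℝ) (ha : 1 < a) :
    ∃ v : ℂ → ℂ, (∀ x, ‖v x‖ = 1) ∧ LipschitzWith 1 v ∧
      ∀ C : ℝ, ∃ (f : SchwartzMap ℂ ℝ) (lam : ℝ), 0 < lam ∧
        ENNReal.ofReal (C / lam ^ 2 * ∫ x, f x ^ 2) <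
          volume {x : ℂ | lam < |hilbertAlong v a f x|} ∧
        ENNReal.ofReal (C / lam ^ 2 * ∫ x, f x ^ 2) <
          volume {x : ℂ | ENNReal.ofReal lam < maxAlong v a f x} :=
  main a ha

end Vale.Agent.Results.P112.BeyondUnitScale
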