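import Vale.Agent.P112.Defs
import Vale.Agent.P112.Weak
import Vale.Agent.P112.Crit

namespace Vale.Agent.Results.P112.CriticalScale

open Vale.Agent.P112 MeasureTheory

/-- The critical scale in Stein's conjecture is `1 / Lip(v)`: the uniform weak `(2,2)` bound holds
either at all scales `a` in `(0,1)` or at none of them, and it is false at every scale `a > 1`, where
already a single field violates it. -/
theorem result :
    (∀ a b : ℝ, 0 < a → a < 1 → 0 < b → b < 1 → (WeakBound a ↔ WeakBound b)) ∧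
    (∀ a : ℝ, 1 < a → ¬ WeakBound a) ∧
    (∀ a : ℝ, 1 < a → ∃ v : ℂ → ℂ, (∀ x, ‖v x‖ = 1) ∧ LipschitzWith 1 v ∧
      ∀ C : ℝ, ∃ (f : SchwartzMap ℂ ℝ) (lam : ℝ), 0 < lam ∧
        ENNReal.ofReal (C / lam ^ 2 * ∫ x, f x ^ 2) <
          volume {x : ℂ | lam < |hilbertAlong v a f x|} ∧
        ENNReal.ofReal (C / lam ^ 2 * ∫ x, f x ^ 2) <
          volume {x : ℂ | ENNReal.ofReal lam < maxAlong v a f x}) :=
  ⟨fun _ _ ha ha1 hb hb1 => ⟨transfer ha ha1 hb hb1, transfer hb hb1 ha ha1⟩,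
    fun _ ha => not_weak ha, fun a ha => main a ha⟩

end Vale.Agent.Results.P112.CriticalScale
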