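import Vale.Agent.P112.Defs
import Vale.Agent.P112.Weak
import Vale.Agent.P112.CritOne

namespace Vale.Agent.Results.P112.UnitScale

open Vale.Agent.P112 MeasureTheory

/-- Stein's conjecture is equivalent to the weak `(2,2)` bound at the single scale `a = 1`, that is
`1 / Lip(v)`; the set of admissible scales is empty or exactly `(0, 1]`; and at every scale `a > 1`
already a single field violates the bound. -/
theorem result :
    ((∃ a : ℝ, 0 < a ∧ WeakBound a) ↔ WeakBound 1) ∧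
    ({a : ℝ | 0 < a ∧ WeakBound a} = ∅ ∨ {a : ℝ | 0 < a ∧ WeakBound a} = Set.Ioc 0 1) ∧
    (∀ a : ℝ, 1 < a → ∃ v : ℂ → ℂ, (∀ x, ‖v x‖ = 1) ∧ LipschitzWith 1 v ∧
      ∀ C : ℝ, ∃ (f : SchwartzMap ℂ ℝ) (lam : ℝ), 0 < lam ∧
        ENNReal.ofReal (C / lam ^ 2 * ∫ x, f x ^ 2) <
          volume {x : ℂ | lam < |hilbertAlong v a f x|} ∧
        ENNReal.ofReal (C / lam ^ 2 * ∫ x, f x ^ 2) <
          volume {x : ℂ | ENNReal.ofReal lam < maxAlong v a f x}) := by
  have hle : ∀ a : ℝ, WeakBound a → a ≤ 1 := fun a ha => not_lt.1 fun h => not_weak h ha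
  refine ⟨⟨?_, fun h => ⟨1, one_pos, h⟩⟩, ?_, fun a ha => main a ha⟩
  · rintro ⟨a, ha, hw⟩
    exact transfer_one ha (hle a hw) one_pos le_rfl hw
  · rcases Set.eq_empty_or_nonempty {a : ℝ | 0 < a ∧ WeakBound a} with h | ⟨b, hb0, hb⟩
    · exact Or.inl h
    · refine Or.inr (Set.ext fun a => ⟨?_, ?_⟩)
      · rintro ⟨ha, hw⟩
        exact ⟨ha, hle a hw⟩
      · rintro ⟨ha, ha1⟩
        exact ⟨ha, transfer_one hb0 (hle b hb) ha ha1 hb⟩

end Vale.Agent.Results.P112.UnitScale
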